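import Vale.Agent.P207.N4.Dim
import Vale.Agent.P207.N4.H722.GeoIn
import Vale.Agent.P207.N4.H459.Inv
import Vale.Agent.P207.N4.H618.MetU0

/-!
# P207, line N3, row R11: the inverse metric of the horospheres in the charts of the leaves

`Ir I x (r, u)`: inverse metric (up to the factor `r₀ ^ 2`) of the horosphere of level `lv x + r`
of the leaf of `x`, in the chart `e x`, at the point `u`; jointly smooth in `(r, u)`, with jointly
continuous derivatives. `Ir I x (0, u)` is the field `I` of `Metr`.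
-/

open Set Filter Topology Metric
open scoped ContDiff

set_option linter.unusedSectionVars false

noncomputable section

namespace Vale.Agent.P207.N4.H306

open Vale.Agent.P207.N3 Vale.Agent.P207.N3.H306

variable [Dim]

open Vale.Agent.P207.N4.H76 (pk tl e0 sg)
open Vale.Agent.P207.N4.H722 (GeoIn)
open ContinuousLinearMap (adjoint)

variable {Γ X B : Type} [Group Γ] [MetricSpace X] [ProperSpace X] [MulAction Γ X]
  [IsIsometricSMul Γ X] [TopologicalSpace B] [CompactSpace B] [T2Space B] [MulAction Γ B]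
  [ContinuousConstSMul Γ B] {L : Leaf Γ X B} {V : Type} [NormedAddCommGroup V] [NormedSpace ℝ V]
  [FiniteDimensional ℝ V] (I : GeoIn L V)

/-- composition with `D` on the right, as a linear map of the covectors -/
def pre : ((ℝ × E2) →L[ℝ] V) →L[ℝ] ((V →L[ℝ] ℝ) →L[ℝ] ((ℝ × E2) →L[ℝ] ℝ)) :=
  (ContinuousLinearMap.compL ℝ (ℝ × E2) V ℝ).flip

theorem pre_apply (D : (ℝ × E2) →L[ℝ] V) (l : V →L[ℝ] ℝ) : pre D l = l ∘L D := rfl

/-- the pull back of the metric by `A x` -/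
def QQ (x : X) (p : ℝ × E2) : (ℝ × E2) →L[ℝ] ((ℝ × E2) →L[ℝ] ℝ) :=
  pre (fderiv ℝ (I.S.A x) p) ∘L I.G (I.S.A x p) ∘L fderiv ℝ (I.S.A x) p

theorem QQ_apply (x : X) (p w w' : ℝ × E2) :
    QQ I x p w w' = I.G (I.S.A x p) (fderiv ℝ (I.S.A x) p w) (fderiv ℝ (I.S.A x) p w') := rfl

/-- the covector `⟨a, pr₂ ·⟩` -/
def kap : E2 →L[ℝ] ((ℝ × E2) →L[ℝ] ℝ) :=
  ((ContinuousLinearMap.compL ℝ (ℝ × E2) E2 ℝ).flip (ContinuousLinearMap.snd ℝ ℝ E2)) ∘L
    (innerSL ℝ : E2 →L[ℝ] E2 →L[ℝ] ℝ)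

theorem kap_apply (a : E2) (w : ℝ × E2) : kap a w = inner ℝ a w.2 := rfl

/-- `pr₂ ∘ M ∘ pr₂*` -/
def cut : (((ℝ × E2) →L[ℝ] ℝ) →L[ℝ] (ℝ × E2)) →L[ℝ] (E2 →L[ℝ] E2) :=
  ((ContinuousLinearMap.compL ℝ E2 (ℝ × E2) E2) (ContinuousLinearMap.snd ℝ ℝ E2)) ∘L
    ((ContinuousLinearMap.compL ℝ E2 ((ℝ × E2) →L[ℝ] ℝ) (ℝ × E2)).flip kap)

theorem cut_apply (M : ((ℝ × E2) →L[ℝ] ℝ) →L[ℝ] (ℝ × E2)) (a : E2) :
    cut M a = (M (kap a)).2 := rfl

/-- the time, counted from the disc of `x`, at which the geodesic of the point `u` of the chart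
`e x` has the level `lv x + r` -/
def tm (x : X) (p : ℝ × E2) : ℝ := L.lv x + p.1 - I.b (L.em x) (I.S.A x (0, p.2))

/-- the inverse metric of the horospheres -/
def Ir (x : X) (p : ℝ × E2) : E2 →L[ℝ] E2 :=
  I.r₀ ^ 2 • cut ((QQ I x (tm I x p, p.2)).inverse)

/-! ### smoothness -/

theorem isOpen_tube : IsOpen ((univ : Set X) ×ˢ ((univ : Set ℝ) ×ˢ ball (0 : E2) I.S.R)) :=
  isOpen_univ.prod (isOpen_univ.prod isOpen_ball)

theorem QQ_jc : JC (QQ I) (univ ×ˢ (univ ×ˢ ball 0 I.S.R)) := by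
  have hA := I.S.A_jc
  have hD := hA.fderiv
  have hG : JC (fun x p => I.G (I.S.A x p)) (univ ×ˢ (univ ×ˢ ball 0 I.S.R)) :=
    hA.comp_contDiff I.G_smooth
  have h1 : JC (fun x p => (I.G (I.S.A x p)).comp (fderiv ℝ (I.S.A x) p))
      (univ ×ˢ (univ ×ˢ ball 0 I.S.R)) := hG.clm_comp hD
  have h2 := JC.clm (G := ((V →L[ℝ] ℝ) →L[ℝ] ((ℝ × E2) →L[ℝ] ℝ))) pre hD
  exact h2.clm_comp h1

theorem tm_jc : JC (tm I) (univ ×ˢ (univ ×ˢ ball 0 I.S.R)) := by
  have hO := isOpen_tube I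
  have h1 : JC (fun (x : X) (_ : ℝ × E2) => L.lv x) (univ ×ˢ (univ ×ˢ ball 0 I.S.R)) :=
    JC.param' hO L.lv_cont
  have h2 : JC (fun (_ : X) (p : ℝ × E2) => p.1) (univ ×ˢ (univ ×ˢ ball 0 I.S.R)) :=
    (JC.id hO).fst
  have h3 : JC (fun (_ : X) (p : ℝ × E2) => ((0, p.2) : ℝ × E2))
      (univ ×ˢ (univ ×ˢ ball 0 I.S.R)) := (JC.const hO 0).prodMk (JC.id hO).snd
  have h4 : JC (fun (x : X) (p : ℝ × E2) => I.S.A x (0, p.2)) (univ ×ˢ (univ ×ˢ ball 0 I.S.R)) :=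
    I.S.A_jc.comp' h3 fun p hp => ⟨mem_univ _, mem_univ _, hp.2.2⟩
  have h5 : JC (fun (x : X) (q : V) => I.b (L.em x) q) univ := by
    have h6 := I.b_jc.pullback L.em_cont
    exact h6
  have h6 := h5.comp' h4 fun _ _ => mem_univ _
  exact (h1.add h2).sub h6

theorem QQ_inj (x : X) (s : ℝ) {u : E2} (hu : u ∈ ball (0 : E2) I.S.R) :
    Function.Injective (QQ I x (s, u)) := by
  rw [injective_iff_map_eq_zero]
  intro w hw
  have h1 : QQ I x (s, u) w w = 0 := by rw [hw]; rfl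
  rw [QQ_apply] at h1
  have hb := I.S.A_der' H459.invThm x s hu
  by_contra hne
  have h2 : fderiv ℝ (I.S.A x) (s, u) w ≠ 0 := fun h => hne (hb.1 (by rw [h, map_zero]))
  exact (I.G_pos _ _ h2).ne' h1

theorem QQ_inv (x : X) (s : ℝ) {u : E2} (hu : u ∈ ball (0 : E2) I.S.R) :
    (QQ I x (s, u)).IsInvertible := by
  apply H459.isInvertible_of_bijective
  have hi := QQ_inj I x s hu
  refine ⟨hi, ?_⟩
  have hfin : Module.finrank ℝ (ℝ × E2) = Module.finrank ℝ ((ℝ × E2) →L[ℝ] ℝ) := by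
    rw [(LinearMap.toContinuousLinearMap : ((ℝ × E2) →ₗ[ℝ] ℝ) ≃ₗ[ℝ] _).finrank_eq.symm]
    exact (Subspace.dual_finrank_eq (K := ℝ) (V := ℝ × E2)).symm
  exact (LinearMap.injective_iff_surjective_of_finrank_eq_finrank
    (f := (QQ I x (s, u)).toLinearMap) hfin).1 hi

theorem Ir_jc : JC (Ir I) (univ ×ˢ (univ ×ˢ ball 0 I.S.R)) := by
  have hO := isOpen_tube I
  have h1 : JC (fun (x : X) (p : ℝ × E2) => (tm I x p, p.2)) (univ ×ˢ (univ ×ˢ ball 0 I.S.R)) :=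
    (tm_jc I).prodMk (JC.id hO).snd
  have h2 : JC (fun (x : X) (p : ℝ × E2) => QQ I x (tm I x p, p.2))
      (univ ×ˢ (univ ×ˢ ball 0 I.S.R)) :=
    (QQ_jc I).comp' h1 fun p hp => ⟨mem_univ _, mem_univ _, hp.2.2⟩
  have h3 : JC (fun (x : X) (p : ℝ × E2) => (QQ I x (tm I x p, p.2)).inverse)
      (univ ×ˢ (univ ×ˢ ball 0 I.S.R)) :=
    JC.inverse' h2 fun p hp => QQ_inv I p.1 (tm I p.1 p.2) hp.2.2
  have h4 : JC (fun (x : X) (p : ℝ × E2) => cut ((QQ I x (tm I x p, p.2)).inverse))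
      (univ ×ˢ (univ ×ˢ ball 0 I.S.R)) := h3.clm cut
  exact h4.const_smul (I.r₀ ^ 2)

/-! ### the formula -/

theorem mem3 {u : E2} (hu : u ∈ ball (0 : E2) 3) : u ∈ ball (0 : E2) I.S.R :=
  I.S.mem_R (ball_subset_closedBall hu)

/-- the point of the chart which is seen at the foot point of a frame -/
theorem exists_point {x z : X} (hem : L.em z = L.em x) {u : E2} (hu : u ∈ ball (0 : E2) 3)
    (h : L.e x u = L.ep z) : ∃ s, I.S.A x (s, u) = I.S.ft z := by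
  have h1 : I.S.e z 0 = I.S.e x u := by
    rw [I.S.e_zero, I.ep_eq, I.e_eq x u (ball_subset_closedBall hu), h]
  obtain ⟨s, hs⟩ := (I.S.e_eq_iff (by rw [I.em_eq, I.em_eq, hem]) (mem3 I hu)).1 h1
  have h2 : I.S.A z (0, 0) = I.S.ft z := I.S.A_zero z
  exact ⟨s, by rw [hs, h2]⟩

/-- the derivative of a transition map at `0` -/
theorem fderiv_tau {x z : X} (hem : L.em z = L.em x) {s : ℝ} {u : E2}
    (hu : u ∈ ball (0 : E2) 3) (h : I.S.A x (s, u) = I.S.ft z) (w : E2) :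
    ∃ c, fderiv ℝ (I.S.A x) (s, u) (c, fderiv ℝ (L.τ z x) 0 w) = I.E z (pk 0 (I.r₀ • w)) := by
  have hem' : I.S.em z = I.S.em x := by rw [I.em_eq, I.em_eq, hem]
  have hA0 : I.S.A z (0, 0) = I.S.ft z := I.S.A_zero z
  obtain ⟨T, G, h1, h2, h3, h4⟩ := I.S.cross H459.invThm (x₀ := z) (y₀ := x) (u₀ := 0)
    I.S.zero_mem (s₀ := s) (mem3 I hu) (by rw [h, hA0])
  have hGd : DifferentiableAt ℝ (G (z, x)) 0 := h1.differentiableAt h2
  have hG0 : G (z, x) 0 = (s, u) := h3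
  -- near `0` the transition map is the second component of `G`
  have hev : ∀ᶠ v in 𝓝 (0 : E2), L.τ z x v = (G (z, x) v).2 := by
    have e1 : ∀ᶠ v in 𝓝 (0 : E2), ((z, x), v) ∈ T := (isOpen_slice h1.isOpen (z, x)).mem_nhds h2
    have e2 : ∀ᶠ v in 𝓝 (0 : E2), (G (z, x) v).2 ∈ ball (0 : E2) 3 := by
      have h5 : ContinuousAt (fun v => (G (z, x) v).2) 0 := hGd.continuousAt.snd
      refine h5.eventually (isOpen_ball.mem_nhds ?_)
      change (G (z, x) 0).2 ∈ ball (0 : E2) 3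
      rw [hG0]
      exact hu
    have e3 : ∀ᶠ v in 𝓝 (0 : E2), v ∈ ball (0 : E2) 3 :=
      isOpen_ball.mem_nhds (mem_ball_self (by norm_num))
    filter_upwards [e1, e2, e3] with v hv1 hv2 hv3
    obtain ⟨-, -, h6⟩ := h4 _ hv1
    simp only at h6
    have h7 : I.S.e z v = I.S.e x (G (z, x) v).2 :=
      (I.S.e_eq_iff hem' (mem3 I hv2)).2 ⟨(G (z, x) v).1, by rw [Prod.mk.eta]; exact h6⟩
    rw [I.e_eq z v (ball_subset_closedBall hv3), I.e_eq x _ (ball_subset_closedBall hv2)] at h7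
    have h8 : L.τ z x v = Function.invFunOn (L.e x) (closedBall (0 : E2) 3) (L.e z v) := rfl
    rw [h8, h7]
    exact (L.e_inj x).leftInvOn_invFunOn (ball_subset_closedBall hv2)
  have hτ : fderiv ℝ (L.τ z x) 0 = (ContinuousLinearMap.snd ℝ ℝ E2) ∘L fderiv ℝ (G (z, x)) 0 := by
    rw [Filter.EventuallyEq.fderiv_eq hev]
    exact (hGd.hasFDerivAt.snd).fderiv
  -- derivative of the identity `A x (G v) = A z (0, v)`
  have hAx : HasFDerivAt (I.S.A x) (fderiv ℝ (I.S.A x) (s, u)) (G (z, x) 0) := by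
    rw [hG0]
    exact (I.S.A_jc.differentiableAt (I.S.mem_S x s (mem3 I hu))).hasFDerivAt
  have d1 := hAx.comp (0 : E2) hGd.hasFDerivAt
  have d2 : HasFDerivAt (fun v : E2 => I.S.A z (0, v))
      (fderiv ℝ (I.S.A z) 0 ∘L ContinuousLinearMap.inr ℝ ℝ E2) 0 := by
    have h5 : HasFDerivAt (I.S.A z) (fderiv ℝ (I.S.A z) 0) (0, 0) :=
      (I.S.A_jc.differentiableAt (I.S.mem_S z 0 I.S.zero_mem)).hasFDerivAt
    exact h5.comp (0 : E2) (hasFDerivAt_prodMk_right (0 : ℝ) (0 : E2))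
  have hid : (I.S.A x ∘ G (z, x)) =ᶠ[𝓝 0] fun v : E2 => I.S.A z (0, v) := by
    filter_upwards [(isOpen_slice h1.isOpen (z, x)).mem_nhds h2] with v hv
    exact (h4 _ hv).2.2
  have d3 := (d1.congr_of_eventuallyEq hid.symm).unique d2
  refine ⟨(fderiv ℝ (G (z, x)) 0 w).1, ?_⟩
  have h9 := congrArg (fun A : E2 →L[ℝ] V => A w) d3
  simp only [ContinuousLinearMap.coe_comp, Function.comp_apply] at h9
  have h10 : fderiv ℝ (L.τ z x) 0 w = (fderiv ℝ (G (z, x)) 0 w).2 := by rw [hτ]; rfl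
  rw [h10, Prod.mk.eta, h9]
  exact I.A_fderiv z 0 w

theorem b_psi (ξ : B) (s : ℝ) (q : V) : I.b ξ (I.S.psi ξ s q) = I.b ξ q + s := by
  obtain ⟨y, rfl, rfl, -⟩ := I.exists_frame ξ q
  rw [← I.ft_φ, ← L.em_φ s y, I.b_lv, L.em_φ, I.b_lv, L.lv_φ]

theorem eq_tm {x z : X} (hem : L.em z = L.em x) {r : ℝ} (hlv : L.lv z = L.lv x + r) {s : ℝ}
    {u : E2} (hu : u ∈ ball (0 : E2) 3) (h : I.S.A x (s, u) = I.S.ft z) : tm I x (r, u) = s := by
  have h1 := I.S.A_psi x s u (mem3 I hu)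
  have h2 := I.b_lv z
  rw [hem, ← h, h1, I.em_eq, b_psi] at h2
  change L.lv x + r - I.b (L.em x) (I.S.A x (0, u)) = s
  rw [← hlv, ← h2]
  ring

theorem fderiv_time {x z : X} (hem : L.em z = L.em x) {s : ℝ} {u : E2}
    (hu : u ∈ ball (0 : E2) 3) (h : I.S.A x (s, u) = I.S.ft z) :
    fderiv ℝ (I.S.A x) (s, u) (1, 0) = I.E z e0 := by
  have h1 := I.hasDerivAt_psi_zero z
  have h2 : HasFDerivAt (I.S.A x) (fderiv ℝ (I.S.A x) (s, u)) ((s + 0 : ℝ), u) := by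
    rw [add_zero]
    exact (I.S.A_jc.differentiableAt (I.S.mem_S x s (mem3 I hu))).hasFDerivAt
  have h3 : HasDerivAt (fun t : ℝ => ((s + t, u) : ℝ × E2)) (1, 0) 0 :=
    ((hasDerivAt_id (0 : ℝ)).const_add s).prodMk (hasDerivAt_const 0 u)
  have h4 : HasDerivAt (fun t : ℝ => I.S.A x (s + t, u)) (fderiv ℝ (I.S.A x) (s, u) (1, 0)) 0 :=
    h2.comp_hasDerivAt (0 : ℝ) h3
  have h5 : (fun t : ℝ => I.S.A x (s + t, u)) =
      fun t => I.S.psi (L.em z) t (I.S.ft z) := by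
    funext t
    rw [hem, ← h, ← I.em_eq, I.S.psi_A x t s (mem3 I hu), add_comm]
  rw [h5] at h4
  exact h4.unique h1

theorem inner_pk (c : E3) (t : ℝ) (w : E2) : inner ℝ c (pk t w) = c 0 * t + inner ℝ (tl c) w := by
  simp only [PiLp.inner_apply, Fin.sum_univ_succ, H76.pk_zero, H76.pk_succ, H76.tl_apply,
    RCLike.inner_apply, conj_trivial]
  ring

/-- **the inverse metric of the horosphere through the foot point of `z`** -/
theorem Ir_eq {x z : X} (hem : L.em z = L.em x) {r : ℝ} (hlv : L.lv z = L.lv x + r) {u : E2}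
    (hu : u ∈ ball (0 : E2) 3) (h : L.e x u = L.ep z) :
    Ir I x (r, u) = fderiv ℝ (L.τ z x) 0 ∘L adjoint (fderiv ℝ (L.τ z x) 0) := by
  obtain ⟨s, hs⟩ := exists_point I hem hu h
  have htm := eq_tm I hem hlv hu hs
  have hb := I.S.A_der' H459.invThm x s (mem3 I hu)
  obtain ⟨D, hD⟩ := H459.isInvertible_of_bijective hb
  have hDa : ∀ p, D p = fderiv ℝ (I.S.A x) (s, u) p := fun p => by
    rw [← hD]; rfl
  set N : E2 →L[ℝ] E2 := fderiv ℝ (L.τ z x) 0 with hN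
  -- the frame `z` in the coordinates of the tube of `x`
  set F : E3 → ℝ × E2 := fun c => D.symm (I.E z c) with hF
  have hDF : ∀ c, fderiv ℝ (I.S.A x) (s, u) (F c) = I.E z c := fun c => by
    rw [← hDa, hF]
    exact D.apply_symm_apply _
  have hF0 : F e0 = (1, 0) := by
    apply D.injective
    rw [hDa, hDa, hDF, fderiv_time I hem hu hs]
  have hFN : ∀ w, (F (pk 0 (I.r₀ • w))).2 = N w := by
    intro w
    obtain ⟨c, hc⟩ := fderiv_tau I hem hu hs w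
    have h1 : F (pk 0 (I.r₀ • w)) = (c, N w) := by
      apply D.injective
      rw [hDa, hDa, hDF, hc]
    rw [h1]
  have hFs : ∀ (t : ℝ) c, F (t • c) = t • F c := fun t c => by
    simp only [hF, map_smul]
  have hr := I.r₀_pos.ne'
  have hFN' : ∀ w, (F (pk 0 w)).2 = I.r₀⁻¹ • N w := by
    intro w
    have h1 := hFN (I.r₀⁻¹ • w)
    rw [smul_smul, mul_inv_cancel₀ hr, one_smul, map_smul] at h1
    exact h1
  have hQ : ∀ c c', QQ I x (s, u) (F c) (F c') = inner ℝ c c' := by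
    intro c c'
    rw [QQ_apply, hDF, hDF, hs, I.G_E]
  ext1 a
  change I.r₀ ^ 2 • cut ((QQ I x (tm I x (r, u), u)).inverse) a = N (adjoint N a)
  rw [cut_apply, htm]
  set m := (QQ I x (s, u)).inverse (kap a) with hm
  have hQm : QQ I x (s, u) m = kap a := by
    obtain ⟨q, hq⟩ := QQ_inv I x s (mem3 I hu)
    rw [hm, ← hq, ContinuousLinearMap.inverse_equiv]
    exact q.apply_symm_apply _
  obtain ⟨c, hc⟩ : ∃ c, F c = m := by
    obtain ⟨c, hc⟩ := (I.E_bij z).2 (D m)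
    exact ⟨c, by simp only [hF]; rw [hc, D.symm_apply_apply]⟩
  have hin : ∀ c', inner ℝ c c' = inner ℝ a (F c').2 := by
    intro c'
    rw [← hQ, hc, hQm, kap_apply]
  have hc0 : c 0 = 0 := by
    have h1 := hin e0
    rw [hF0] at h1
    have h2 := inner_pk c 1 0
    rw [inner_zero_right, mul_one, add_zero] at h2
    rw [← h2]
    change inner ℝ c e0 = 0
    rw [h1]
    exact inner_zero_right a
  have hcp : c = pk 0 (tl c) := by
    conv_lhs => rw [← H76.pk_tl c, hc0]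
  have htl : tl c = I.r₀⁻¹ • adjoint N a := by
    refine ext_inner_right ℝ fun w => ?_
    have h1 := hin (pk 0 w)
    rw [inner_pk, mul_zero, zero_add, hFN', inner_smul_right] at h1
    rw [h1, inner_smul_left, ContinuousLinearMap.adjoint_inner_left]
    rfl
  rw [← hc, hcp, hFN', htl, map_smul, smul_smul, smul_smul]
  have h3 : I.r₀ ^ 2 * (I.r₀⁻¹ * I.r₀⁻¹) = 1 := by
    field_simp
  rw [← mul_assoc] at h3
  rw [show I.r₀ ^ 2 * I.r₀⁻¹ * I.r₀⁻¹ = 1 from h3, one_smul]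

/-! ### the field `I` of `Metr` -/

/-- the inverse metric of the horosphere through the foot point of `x`, in the chart `e x` -/
def I0 (x : X) (u : E2) : E2 →L[ℝ] E2 := Ir I x (0, u)

theorem Ir_jc3 : JC (Ir I) (univ ×ˢ (univ ×ˢ ball 0 3)) :=
  (Ir_jc I).mono (isOpen_univ.prod (isOpen_univ.prod isOpen_ball))
    fun _ hp => ⟨mem_univ _, mem_univ _, mem3 I hp.2.2⟩

/-- joint smoothness in the level and the point -/
theorem Ir_smooth (x : X) : ContDiffOn ℝ ∞ (Ir I x) (univ ×ˢ ball 0 3) := by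
  have h1 := (Ir_jc3 I).smooth x
  have h2 : {u : ℝ × E2 | (x, u) ∈ (univ ×ˢ (univ ×ˢ ball 0 3) : Set (X × (ℝ × E2)))} =
      univ ×ˢ ball 0 3 := by
    ext u
    simp
  rwa [h2] at h1

theorem I0_jc : JC (I0 I) (univ ×ˢ ball 0 3) := by
  have hO : IsOpen ((univ : Set X) ×ˢ ball (0 : E2) 3) := isOpen_univ.prod isOpen_ball
  have h1 : JC (fun (_ : X) (u : E2) => ((0, u) : ℝ × E2)) (univ ×ˢ ball 0 3) :=
    (JC.const hO 0).prodMk (JC.id hO)
  exact (Ir_jc3 I).comp' h1 fun p hp => ⟨mem_univ _, mem_univ _, hp.2⟩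

theorem I0_smooth (x : X) : ContDiffOn ℝ ∞ (I0 I x) (ball 0 3) := by
  have h1 := (I0_jc I).smooth x
  have h2 : {u : E2 | (x, u) ∈ (univ ×ˢ ball 0 3 : Set (X × E2))} = ball 0 3 := by
    ext u
    simp
  rwa [h2] at h1

theorem I0_cont (k : ℕ) : ContinuousOn (fun p : X × E2 => iteratedFDeriv ℝ k (I0 I p.1) p.2)
    (univ ×ˢ ball 0 3) := (I0_jc I).cont k

theorem I0_eq (x z : X) (hem : L.em z = L.em x) (hlv : L.lv z = L.lv x) (u : E2)
    (hu : u ∈ ball (0 : E2) 3) (h : L.e x u = L.ep z) :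
    I0 I x u = fderiv ℝ (L.τ z x) 0 ∘L adjoint (fderiv ℝ (L.τ z x) 0) :=
  Ir_eq I hem (by rw [hlv, add_zero]) hu h

/-- the fields with charts of `Metr`, from the derivative of the transition maps along the flow -/
def ji (k : H618.UK L) (jac : ∀ x t, HasDerivAt (fun s => fderiv ℝ (L.τ (L.φ s x) x) 0)
    (-(fderiv ℝ (L.τ (L.φ t x) x) 0 ∘L k.U (L.φ t x))) t) : H618.JI L k where
  jac := jac
  I := I0 I
  I_smooth := I0_smooth I
  I_cont := I0_cont I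
  I_eq := I0_eq I

end Vale.Agent.P207.N4.H306
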