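import Vale.Agent.P207.N4.Dim
import Vale.Agent.P207.N4.H306.MetI
import Vale.Agent.P207.N4.H266.TensG

/-!
# P207, line N4: the horospheres in the charts (first part of N3/H306/LinkI)
-/

open Set Filter Topology Metric
open scoped ContDiff RealInnerProductSpace

set_option linter.unusedSectionVars false

noncomputable section

namespace Vale.Agent.P207.N4.H306

open Vale.Agent.P207.N3

variable [Dim]
open Vale.Agent.P207.N4.H76 (pk tl e0 sg)
open Vale.Agent.P207.N4.H722 (GeoIn HessIn)
open Vale.Agent.P207.N4.Ten (hor pt pt_spec cj Sf ball_sub)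

variable {Γ X B : Type} [Group Γ] [MetricSpace X] [ProperSpace X] [MulAction Γ X]
  [IsIsometricSMul Γ X] [TopologicalSpace B] [CompactSpace B] [T2Space B] [MulAction Γ B]
  [ContinuousConstSMul Γ B] {L : Leaf Γ X B} {V : Type} [NormedAddCommGroup V] [NormedSpace ℝ V]
  [FiniteDimensional ℝ V] (I : GeoIn L V)

/-! ### the horospheres -/

theorem hor_eq_Ir (x : X) (r : ℝ) {u : E2} (hu : u ∈ ball (0 : E2) 3) :
    hor L (x, r) u = Ir I x (r, u) := by
  have h := pt_spec (L := L) x (ball_sub hu)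
  rw [Ir_eq I (z := L.φ r (pt L x u)) (by rw [L.em_φ, h.em]) (by rw [L.lv_φ, h.lv]) hu
    (by rw [Ten.ep_φ, h.ep])]
  rfl

include I in
theorem hor_smooth (x : X) :
    ContDiffOn ℝ ∞ (fun p : ℝ × E2 => hor L (x, p.1) p.2) (univ ×ˢ ball 0 3) :=
  (Ir_smooth I x).congr fun p hp => hor_eq_Ir I x p.1 hp.2

/-! ### frames over the points of the disc -/

/-- a frame at `q` on the geodesic which comes from `ξ` -/
def zf (ξ : B) (q : V) : X := Classical.choose (I.exists_frame ξ q)

theorem em_zf (ξ : B) (q : V) : L.em (zf I ξ q) = ξ := (Classical.choose_spec (I.exists_frame ξ q)).1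

theorem ft_zf (ξ : B) (q : V) : I.S.ft (zf I ξ q) = q :=
  (Classical.choose_spec (I.exists_frame ξ q)).2.1

theorem ep_zf (ξ : B) (q : V) : L.ep (zf I ξ q) = I.S.line ξ q :=
  (Classical.choose_spec (I.exists_frame ξ q)).2.2

theorem lv_zf (ξ : B) (q : V) : L.lv (zf I ξ q) = I.b ξ q := by
  rw [← I.b_lv, em_zf, ft_zf]

end Vale.Agent.P207.N4.H306
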